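import Vale.Agent.Lib.P190.Free

/-!
Translation of the `Ext` hypothesis into the matrix form.
-/

namespace Vale.Agent.Lib.P190

universe u

open CategoryTheory Abelian Matrix

section presentation
variable {A T : Type u} [CommRing A]

lemma exists_presentation [IsLocalRing A] [IsNoetherianRing A] [AddCommGroup T] [Module A T]
    [Module.Finite A T] (hpd : HasProjectiveDimensionLE (ModuleCat.of A T) 1) :
    ∃ (n₀ n₁ : ℕ) (Φ : Matrix (Fin n₀) (Fin n₁) A) (π : (Fin n₀ → A) →ₗ[A] T),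
      Function.Surjective π ∧ LinearMap.ker π = LinearMap.range Φ.mulVecLin ∧
        Function.Injective Φ.mulVecLin := by
  obtain ⟨n₀, π, hπ⟩ := Module.Finite.exists_fin' A T
  have hS := LinearMap.shortExact_shortComplexKer hπ
  have hP : Projective (ModuleCat.of A (Fin n₀ → A)) :=
    (IsProjective.iff_projective (R := A) (Fin n₀ → A)).1 inferInstance
  have h2 : HasProjectiveDimensionLT (ModuleCat.of A (Fin n₀ → A)) 1 :=
    projective_iff_hasProjectiveDimensionLT_one.1 hP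
  have h3 : HasProjectiveDimensionLT (ModuleCat.of A T) 2 := hpd
  have h1 : HasProjectiveDimensionLT (ModuleCat.of A (LinearMap.ker π)) 1 :=
    hS.hasProjectiveDimensionLT_X₁ 1 h2 h3
  have h4 : Projective (ModuleCat.of A (LinearMap.ker π)) :=
    projective_iff_hasProjectiveDimensionLT_one.2 h1
  have h5 : Module.Projective A (LinearMap.ker π) :=
    (IsProjective.iff_projective (R := A) (LinearMap.ker π)).2 h4
  have h6 : Module.Free A (LinearMap.ker π) := Module.free_of_flat_of_isLocalRing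
  let b := Module.finBasis A (LinearMap.ker π)
  let incl : (Fin (Module.finrank A (LinearMap.ker π)) → A) →ₗ[A] (Fin n₀ → A) :=
    (LinearMap.ker π).subtype ∘ₗ b.equivFun.symm.toLinearMap
  have hm : (LinearMap.toMatrix' incl).mulVecLin = incl := by
    rw [← Matrix.toLin'_apply', Matrix.toLin'_toMatrix']
  refine ⟨n₀, _, LinearMap.toMatrix' incl, π, hπ, ?_, ?_⟩
  · rw [hm]
    ext v
    constructor
    · intro hv
      refine ⟨b.equivFun ⟨v, hv⟩, ?_⟩
      simp [incl]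
    · rintro ⟨w, rfl⟩
      simp [incl]
  · rw [hm]
    intro v w h
    exact b.equivFun.symm.injective ((LinearMap.ker π).injective_subtype h)

end presentation

section ext
variable {A T : Type u} [CommRing A] [CommRing T] [Algebra A T] {n₀ n₁ : ℕ}
  (Φ : Matrix (Fin n₀) (Fin n₁) A) (π : (Fin n₀ → A) →ₗ[A] T)
  (hπ : Function.Surjective π) (hex : LinearMap.ker π = LinearMap.range Φ.mulVecLin)
  (hinj : Function.Injective Φ.mulVecLin)

/-- The short complex of the presentation. -/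
noncomputable abbrev presSC : ShortComplex (ModuleCat.{u} A) :=
  ShortComplex.mk (ModuleCat.ofHom Φ.mulVecLin) (ModuleCat.ofHom π) (by
    ext x
    simp only [ModuleCat.hom_comp, ModuleCat.hom_ofHom, LinearMap.comp_apply, ModuleCat.hom_zero,
      LinearMap.zero_apply]
    exact π_Φ Φ π hex _)

include hπ hex hinj in
lemma presSC_shortExact : (presSC Φ π hex).ShortExact := by
  have hmono : Mono (presSC Φ π hex).f := (ModuleCat.mono_iff_injective _).2 hinj
  have hepi : Epi (presSC Φ π hex).g := (ModuleCat.epi_iff_surjective _).2 hπ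
  refine ShortComplex.ShortExact.mk ?_
  refine (ShortComplex.moduleCat_exact_iff_ker_sub_range _).2 ?_
  change LinearMap.ker π ≤ LinearMap.range Φ.mulVecLin
  rw [hex]

/-- The class attached to a linear form on `A^{n₁}`. -/
noncomputable def deltaExt (hS : (presSC Φ π hex).ShortExact)
    (t : (Fin n₁ → A) →ₗ[A] A) : Ext (ModuleCat.of A T) (ModuleCat.of A A) 1 :=
  hS.extClass.comp (Ext.mk₀ (ModuleCat.ofHom t)) (add_zero 1)

lemma deltaExt_surj (hS : (presSC Φ π hex).ShortExact)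
    (h : Ext (ModuleCat.of A T) (ModuleCat.of A A) 1) :
    ∃ t, h = deltaExt Φ π hex hS t := by
  have hP : Projective (presSC Φ π hex).X₂ :=
    (IsProjective.iff_projective (R := A) (Fin n₀ → A)).1 inferInstance
  obtain ⟨x₁, hx₁⟩ := Ext.contravariant_sequence_exact₃ hS (ModuleCat.of A A) h
    (Ext.eq_zero_of_projective _) (n₀ := 0) (add_zero 1)
  obtain ⟨t, rfl⟩ := (Ext.mk₀_bijective _ _).2 x₁
  refine ⟨t.hom, ?_⟩
  rw [← hx₁]
  rfl

lemma deltaExt_ker (hS : (presSC Φ π hex).ShortExact)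
    (t : (Fin n₁ → A) →ₗ[A] A) (h : deltaExt Φ π hex hS t = 0) :
    ∃ u : (Fin n₀ → A) →ₗ[A] A, t = u ∘ₗ Φ.mulVecLin := by
  obtain ⟨x₂, hx₂⟩ := Ext.contravariant_sequence_exact₁ hS (ModuleCat.of A A)
    (Ext.mk₀ (ModuleCat.ofHom t)) (add_zero 1) h
  obtain ⟨u, rfl⟩ := (Ext.mk₀_bijective _ _).2 x₂
  rw [Ext.mk₀_comp_mk₀, (Ext.mk₀_bijective _ _).1.eq_iff] at hx₂
  refine ⟨u.hom, ?_⟩
  have := congrArg ModuleCat.Hom.hom hx₂
  exact this.symm

lemma deltaExt_add (hS : (presSC Φ π hex).ShortExact) (t t' : (Fin n₁ → A) →ₗ[A] A) :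
    deltaExt Φ π hex hS (t + t') = deltaExt Φ π hex hS t + deltaExt Φ π hex hS t' := by
  simp only [deltaExt]
  rw [← Ext.comp_add, ← Ext.mk₀_add]
  rfl

lemma deltaExt_neg (hS : (presSC Φ π hex).ShortExact) (t : (Fin n₁ → A) →ₗ[A] A) :
    deltaExt Φ π hex hS (- t) = - deltaExt Φ π hex hS t := by
  have h := deltaExt_add Φ π hex hS t (-t)
  have h0 : deltaExt Φ π hex hS 0 = 0 := by
    simp only [deltaExt]
    have : ModuleCat.ofHom (0 : (Fin n₁ → A) →ₗ[A] A) = 0 := rfl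
    rw [this, Ext.mk₀_zero, Ext.comp_zero]
  rw [add_neg_cancel, h0] at h
  exact (neg_eq_of_add_eq_zero_right h.symm).symm

/-- Naturality for lifts of multiplication. -/
lemma deltaExt_act (hS : (presSC Φ π hex).ShortExact) (tt : T)
    (r₀ : (Fin n₀ → A) →ₗ[A] (Fin n₀ → A)) (r₁ : (Fin n₁ → A) →ₗ[A] (Fin n₁ → A))
    (h1 : Φ.mulVecLin ∘ₗ r₁ = r₀ ∘ₗ Φ.mulVecLin)
    (h2 : π ∘ₗ r₀ = (LinearMap.mulLeft A tt) ∘ₗ π) (t : (Fin n₁ → A) →ₗ[A] A) :
    (Ext.mk₀ (ModuleCat.ofHom (LinearMap.mulLeft A tt))).comp (deltaExt Φ π hex hS t) (zero_add 1)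
      = deltaExt Φ π hex hS (t ∘ₗ r₁) := by
  let f : presSC Φ π hex ⟶ presSC Φ π hex :=
    { τ₁ := ModuleCat.ofHom r₁
      τ₂ := ModuleCat.ofHom r₀
      τ₃ := ModuleCat.ofHom (LinearMap.mulLeft A tt)
      comm₁₂ := by
        apply ModuleCat.hom_ext
        exact h1
      comm₂₃ := by
        apply ModuleCat.hom_ext
        exact h2 }
  have hnat := ShortComplex.ShortExact.extClass_naturality hS hS f
  have e1 := Ext.comp_assoc (a₁ := 0) (a₂ := 1) (a₃ := 0) (a₁₂ := 1) (a₂₃ := 1) (a := 1)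
    (Ext.mk₀ f.τ₃) hS.extClass (Ext.mk₀ (ModuleCat.ofHom t)) (zero_add 1) (add_zero 1)
    (by norm_num)
  have e2 := Ext.comp_assoc (a₁ := 1) (a₂ := 0) (a₃ := 0) (a₁₂ := 1) (a₂₃ := 0) (a := 1)
    hS.extClass (Ext.mk₀ f.τ₁) (Ext.mk₀ (ModuleCat.ofHom t)) (add_zero 1) (add_zero 0)
    (by norm_num)
  rw [← hnat] at e1
  simp only [deltaExt]
  refine e1.symm.trans (e2.trans ?_)
  rw [Ext.mk₀_comp_mk₀]
  rfl

end ext

end Vale.Agent.Lib.P190
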