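import Vale.Agent.Lib.P190.Main

/-!
Descent from freeness over a regular local subring to a regular sequence of the right length.
-/

namespace Vale.Agent.Lib.P190

universe u

open CategoryTheory Abelian IsLocalRing RingTheory.Sequence TensorProduct

section descent

variable {A R M : Type u} [CommRing A] [CommRing R] [Algebra A R] [Module.Finite A R]

lemma dim_le_of_finite : ringKrullDim R ≤ ringKrullDim A := by
  have : Algebra.IsIntegral A R := inferInstance
  refine Order.krullDim_le_of_strictMono
    (fun p : PrimeSpectrum R => PrimeSpectrum.comap (algebraMap A R) p) ?_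
  intro p q hpq
  have h : p.asIdeal < q.asIdeal := hpq
  exact Ideal.IsIntegral.comap_lt_comap (R := A) h

lemma algebraMap_mem_maximalIdeal [IsLocalRing A] [IsLocalRing R]
    {x : A} (hx : x ∈ maximalIdeal A) :
    algebraMap A R x ∈ maximalIdeal R := by
  have : Algebra.IsIntegral A R := inferInstance
  have h1 : ((maximalIdeal R).comap (algebraMap A R)).IsMaximal :=
    Ideal.isMaximal_comap_of_isIntegral_of_isMaximal (R := A) (maximalIdeal R)
  have h2 := IsLocalRing.eq_maximalIdeal h1
  rw [← h2] at hx
  exact hx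

variable [AddCommGroup M] [Module A M] [Module R M] [IsScalarTower A R M]

theorem regular_of_free [IsLocalRing A] [IsNoetherianRing A] [IsLocalRing R]
    [Module.Free A M] [Module.Finite A M] [Nontrivial M]
    (sA : List A) (hlen : (sA.length : WithBot ℕ∞) = ringKrullDim A)
    (hm : ∀ x ∈ sA, x ∈ maximalIdeal A) (hreg : IsWeaklyRegular A sA) :
    Module.Finite R M ∧ ∃ s : List R, (∀ x ∈ s, x ∈ maximalIdeal R) ∧ IsRegular M s ∧
      (s.length : WithBot ℕ∞) = ringKrullDim R := by
  have hfin : Module.Finite R M := Module.Finite.of_restrictScalars_finite A R M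
  have hnoeth : IsNoetherianRing R := IsNoetherianRing.of_finite A R
  refine ⟨hfin, sA.map (algebraMap A R), ?_, ?_⟩
  · intro x hx
    obtain ⟨y, hy, rfl⟩ := List.mem_map.1 hx
    exact algebraMap_mem_maximalIdeal (hm y hy)
  have h1 : IsWeaklyRegular (M ⊗[A] A) sA := hreg.isWeaklyRegular_lTensor
  have h2 : IsWeaklyRegular M sA :=
    ((TensorProduct.rid A M).isWeaklyRegular_congr sA).1 h1
  have h3 : IsWeaklyRegular M (sA.map (algebraMap A R)) :=
    (isWeaklyRegular_map_algebraMap_iff R M sA).2 h2
  have hmem : ∀ x ∈ sA.map (algebraMap A R), x ∈ maximalIdeal R := by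
    intro x hx
    obtain ⟨y, hy, rfl⟩ := List.mem_map.1 hx
    exact algebraMap_mem_maximalIdeal (hm y hy)
  have h4 : IsRegular M (sA.map (algebraMap A R)) :=
    RingTheory.Sequence.IsRegular.of_isWeaklyRegular_of_mem_maximalIdeal M hmem h3
  refine ⟨h4, ?_⟩
  have hle1 : ringKrullDim R ≤ (sA.length : WithBot ℕ∞) := by
    rw [hlen]
    exact dim_le_of_finite
  have hle2 : ((sA.map (algebraMap A R)).length : WithBot ℕ∞) ≤ ringKrullDim R := by
    have h5 := Module.supportDim_add_length_eq_supportDim_of_isRegular _ h4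
    have h6 : Module.supportDim R M ≤ ringKrullDim R := Module.supportDim_le_ringKrullDim R M
    have h7 : Nontrivial (M ⧸ Ideal.ofList (sA.map (algebraMap A R)) • (⊤ : Submodule R M)) :=
      Submodule.Quotient.nontrivial_iff.2 h4.2.symm
    have h8 := Module.supportDim_ne_bot_of_nontrivial R
      (M ⧸ Ideal.ofList (sA.map (algebraMap A R)) • (⊤ : Submodule R M))
    obtain ⟨a, ha⟩ := WithBot.ne_bot_iff_exists.1 h8
    refine le_trans ?_ h6
    rw [← h5, ← ha]
    norm_cast
    exact le_add_self
  refine le_antisymm hle2 ?_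
  simpa using hle1

end descent

section main

/-- The main theorem: a small Cohen-Macaulay module exists as soon as `R` sits in a tower
`A → R → T` with `A` regular local, `T` module-finite over `A` of projective dimension at
most one, and `Ext¹_A(T, A)` cyclic over `T`. -/
theorem mainCyclic {A R T : Type u} [CommRing A] [IsRegularLocalRing A] [CommRing R]
    [IsLocalRing R] [CommRing T]
    [Algebra A R] [Algebra R T] [Algebra A T] [IsScalarTower A R T]
    [Module.Finite A R] [Module.Finite A T]
    (hinj : Function.Injective (algebraMap A T))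
    (hpd : HasProjectiveDimensionLE (ModuleCat.of A T) 1)
    (g : Ext (ModuleCat.of A T) (ModuleCat.of A A) 1)
    (hg : ∀ h : Ext (ModuleCat.of A T) (ModuleCat.of A A) 1, ∃ t : T,
      h = (Ext.mk₀ (ModuleCat.ofHom (LinearMap.mulLeft A t))).comp g (zero_add 1)) :
    ∃ (M : Type u) (_ : AddCommGroup M) (_ : Module R M), Module.Finite R M ∧
      ∃ s : List R, (∀ x ∈ s, x ∈ IsLocalRing.maximalIdeal R) ∧
        RingTheory.Sequence.IsRegular M s ∧
        (s.length : WithBot ℕ∞) = ringKrullDim R := by
  have hdim := IsRegularLocalRing.spanFinrank_maximalIdeal (R := A)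
  obtain ⟨hdom, sA, hlen, hm, hreg⟩ := regular_aux _ A rfl hdim.symm
  obtain ⟨n₀, n₁, Φ, π, hπ, hex, hΦ⟩ := exists_presentation hpd
  have hS := presSC_shortExact Φ π hπ hex hΦ
  obtain ⟨gT, hP, hF, hN⟩ := core_exists Φ π hπ hex hΦ hinj hS g hg
  let instR : Module R (modM (mkK A) gT) := Module.compHom _ (algebraMap R T)
  have : IsScalarTower A R (modM (mkK A) gT) := by
    refine ⟨fun a r m => ?_⟩
    change (algebraMap R T (a • r)) • m = a • ((algebraMap R T r) • m)
    rw [Algebra.smul_def, map_mul, ← IsScalarTower.algebraMap_apply A R T,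
      ← Algebra.smul_def, smul_assoc]
  have : Module.Free A (modM (mkK A) gT) :=
    Module.free_of_flat_of_isLocalRing (R := A) (P := modM (mkK A) gT)
  obtain ⟨h1, s, h2, h3, h4⟩ := regular_of_free (A := A) (R := R) (M := modM (mkK A) gT)
    sA (by rw [hlen, hdim]) hm hreg
  exact ⟨modM (mkK A) gT, inferInstance, instR, h1, s, h2, h3, h4⟩

end main

end Vale.Agent.Lib.P190
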