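import Vale.Agent.Lib.P190.ModM

/-!
Projectivity of `modM`, given a presentation of `T` over `A` and a surjectivity hypothesis.
-/

namespace Vale.Agent.Lib.P190

universe u

open Matrix

section kernel
variable {R V W : Type*} [CommRing R] [AddCommGroup V] [Module R V] [AddCommGroup W] [Module R W]

/-- The kernel of a surjection onto a projective module is a retract of the source. -/
lemma ker_projective_finite [Module.Projective R V] [Module.Finite R V] [Module.Projective R W]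
    (f : V →ₗ[R] W) (hf : Function.Surjective f) :
    Module.Projective R (LinearMap.ker f) ∧ Module.Finite R (LinearMap.ker f) := by
  obtain ⟨s, hs⟩ := Module.projective_lifting_property f LinearMap.id hf
  have hs' : ∀ w, f (s w) = w := fun w => by
    have := LinearMap.congr_fun hs w
    simpa using this
  let r : V →ₗ[R] LinearMap.ker f :=
    LinearMap.codRestrict _ (LinearMap.id - s ∘ₗ f) (by
      intro v
      simp [LinearMap.mem_ker, hs'])
  have hr : r ∘ₗ (LinearMap.ker f).subtype = LinearMap.id := by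
    ext ⟨v, hv⟩
    have hv' : f v = 0 := hv
    simp [r, hv']
  refine ⟨Module.Projective.of_split _ r hr, ?_⟩
  refine Module.Finite.of_surjective r ?_
  intro x
  refine ⟨x.1, ?_⟩
  exact LinearMap.congr_fun hr x

end kernel

section
variable {A : Type u} [CommRing A] {T : Type u} [CommRing T] [Algebra A T]
variable {F E : Type u} [AddCommGroup F] [Module A F] [AddCommGroup E] [Module A E]
variable {n₀ n₁ : ℕ}

/-- Standard basis vector. -/
def eV (k : Fin n₀) : Fin n₀ → A := fun j => if k = j then 1 else 0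

lemma pi_eq_sum (π : (Fin n₀ → A) →ₗ[A] T) (p : Fin n₀ → A) :
    π p = ∑ k, p k • π (eV k) := by
  exact LinearMap.pi_apply_eq_sum_univ π p

variable (Φ : Matrix (Fin n₀) (Fin n₁) A) (π : (Fin n₀ → A) →ₗ[A] T)
  (hπ : Function.Surjective π) (hex : LinearMap.ker π = LinearMap.range Φ.mulVecLin)

include hex in
lemma π_Φ (c : Fin n₁ → A) : π (Φ.mulVec c) = 0 := by
  have : Φ.mulVec c ∈ LinearMap.ker π := by
    rw [hex]; exact ⟨c, rfl⟩
  exact this

/-- Descent of a linear form along `π`. -/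
noncomputable def descF (ℓ : (Fin n₀ → A) →ₗ[A] F) (h : ∀ c, ℓ (Φ.mulVec c) = 0) : T →ₗ[A] F :=
  ((LinearMap.ker π).liftQ ℓ (by
    rw [hex]
    rintro _ ⟨c, rfl⟩
    exact h c)) ∘ₗ (π.quotKerEquivOfSurjective hπ).symm.toLinearMap

lemma descF_apply (ℓ : (Fin n₀ → A) →ₗ[A] F) (h : ∀ c, ℓ (Φ.mulVec c) = 0) (p : Fin n₀ → A) :
    descF Φ π hπ hex ℓ h (π p) = ℓ p := by
  have : (π.quotKerEquivOfSurjective hπ).symm (π p) = (LinearMap.ker π).mkQ p := by
    rw [LinearEquiv.symm_apply_eq]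
    rfl
  simp only [descF, LinearMap.comp_apply, LinearEquiv.coe_coe, this]
  simp

variable (ι : A →ₗ[A] F) (hι : Function.Injective ι) (mk : F →ₗ[A] E)
  (hmk : LinearMap.ker mk = LinearMap.range ι) (g : T →ₗ[A] E)
  (B : Fin n₀ → Fin n₀ → F) (hBsymm : ∀ j k, B j k = B k j)
  (hB : ∀ j k, mk (B j k) = g (π (eV j) * π (eV k)))
  (L : Matrix (Fin n₁) (Fin n₀) A) (hL : ∀ l k, ι (L l k) = ∑ j, Φ j l • B j k)

/-- The map `Ψ (a, b) = L a + Φᵀ b`. -/
def bigPsi : ((Fin n₀ → A) × (Fin n₀ → A)) →ₗ[A] (Fin n₁ → A) :=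
  (L.mulVecLin ∘ₗ LinearMap.fst A _ _) + (Φᵀ.mulVecLin ∘ₗ LinearMap.snd A _ _)

@[simp] lemma bigPsi_apply (v : (Fin n₀ → A) × (Fin n₀ → A)) :
    bigPsi Φ L v = L.mulVec v.1 + Φᵀ.mulVec v.2 := rfl

/-- The map `Θ c = (Φ c, - Lᵀ c)`. -/
def bigTheta : (Fin n₁ → A) →ₗ[A] ((Fin n₀ → A) × (Fin n₀ → A)) :=
  Φ.mulVecLin.prod (- Lᵀ.mulVecLin)

@[simp] lemma bigTheta_apply (c : Fin n₁ → A) :
    bigTheta Φ L c = (Φ.mulVec c, - Lᵀ.mulVec c) := rfl

include hι hBsymm hL in
lemma LΦ_symm : (L * Φ)ᵀ = L * Φ := by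
  ext l m
  apply hι
  simp only [Matrix.transpose_apply, Matrix.mul_apply, map_sum]
  have key : ∀ l m : Fin n₁, ∑ k, ι (L l k * Φ k m) = ∑ k, ∑ j, (Φ k m * Φ j l) • B j k := by
    intro l m
    refine Finset.sum_congr rfl (fun k _ => ?_)
    have : L l k * Φ k m = Φ k m • L l k := by
      rw [smul_eq_mul, mul_comm]
    rw [this, map_smul, hL, Finset.smul_sum]
    exact Finset.sum_congr rfl (fun j _ => by rw [smul_smul])
  rw [key, key, Finset.sum_comm]
  refine Finset.sum_congr rfl (fun k _ => Finset.sum_congr rfl (fun j _ => ?_))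
  rw [hBsymm j k, mul_comm]

include hι hBsymm hL in
lemma bigPsi_bigTheta (c : Fin n₁ → A) : bigPsi Φ L (bigTheta Φ L c) = 0 := by
  have h := LΦ_symm Φ ι hι B hBsymm L hL
  simp only [bigPsi_apply, bigTheta_apply, Matrix.mulVec_neg, Matrix.mulVec_mulVec]
  rw [← Matrix.transpose_mul, h]
  simp

/-- The vector `w` attached to `(a, b)`. -/
def wVec (v : (Fin n₀ → A) × (Fin n₀ → A)) (k : Fin n₀) : F :=
  (∑ j, v.1 j • B k j) + ι (v.2 k)

include hL in
lemma sum_Φ_w (v : (Fin n₀ → A) × (Fin n₀ → A)) (l : Fin n₁) :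
    ∑ k, Φ k l • wVec ι B v k = ι (bigPsi Φ L v l) := by
  simp only [wVec, smul_add, Finset.sum_add_distrib, bigPsi_apply, Pi.add_apply, map_add]
  congr 1
  · simp only [Matrix.mulVec, dotProduct, map_sum, Finset.smul_sum]
    rw [Finset.sum_comm]
    refine Finset.sum_congr rfl (fun j _ => ?_)
    have : L l j * v.1 j = v.1 j • L l j := by rw [smul_eq_mul, mul_comm]
    rw [this, map_smul, hL, Finset.smul_sum]
    refine Finset.sum_congr rfl (fun k _ => ?_)
    rw [smul_smul, smul_smul, mul_comm]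
  · simp only [Matrix.mulVec, dotProduct, map_sum, Matrix.transpose_apply]
    refine Finset.sum_congr rfl (fun k _ => ?_)
    rw [← map_smul, smul_eq_mul]

/-- The linear form on `A^{n₀}` attached to `(a, b)`. -/
noncomputable def ellV (v : (Fin n₀ → A) × (Fin n₀ → A)) : (Fin n₀ → A) →ₗ[A] F :=
  Fintype.linearCombination A (wVec ι B v)

lemma ellV_apply (v : (Fin n₀ → A) × (Fin n₀ → A)) (p : Fin n₀ → A) :
    ellV ι B v p = ∑ k, p k • wVec ι B v k := by
  simp [ellV, Fintype.linearCombination_apply]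

include hL in
lemma ellV_Φ (v : (Fin n₀ → A) × (Fin n₀ → A)) (hv : bigPsi Φ L v = 0) (c : Fin n₁ → A) :
    ellV ι B v (Φ.mulVec c) = 0 := by
  rw [ellV_apply]
  simp only [Matrix.mulVec, dotProduct, Finset.sum_smul]
  rw [Finset.sum_comm]
  refine Finset.sum_eq_zero (fun l _ => ?_)
  have : ∀ k, (Φ k l * c l) • wVec ι B v k = c l • (Φ k l • wVec ι B v k) := by
    intro k
    rw [smul_smul, mul_comm]
  simp only [this]
  rw [← Finset.smul_sum, sum_Φ_w Φ ι B L hL, hv]
  simp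

/-- The element of `Hom_A(T, F)` attached to `(a, b)`. -/
noncomputable def xV (v : (Fin n₀ → A) × (Fin n₀ → A)) (hv : bigPsi Φ L v = 0) : T →ₗ[A] F :=
  descF Φ π hπ hex (ellV ι B v) (ellV_Φ Φ ι B L hL v hv)

lemma xV_apply (v : (Fin n₀ → A) × (Fin n₀ → A)) (hv : bigPsi Φ L v = 0) (p : Fin n₀ → A) :
    xV Φ π hπ hex ι B L hL v hv (π p) = ∑ k, p k • wVec ι B v k := by
  rw [xV, descF_apply, ellV_apply]

include hmk hB in
lemma mk_wVec (v : (Fin n₀ → A) × (Fin n₀ → A)) (k : Fin n₀) :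
    mk (wVec ι B v k) = ∑ j, v.1 j • g (π (eV k) * π (eV j)) := by
  have h0 : mk (ι (v.2 k)) = 0 := by
    have : ι (v.2 k) ∈ LinearMap.ker mk := by
      rw [hmk]; exact ⟨_, rfl⟩
    exact this
  simp only [wVec, map_add, h0, add_zero, map_sum, map_smul, hB]

include hmk hB in
lemma xV_mem (v : (Fin n₀ → A) × (Fin n₀ → A)) (hv : bigPsi Φ L v = 0) :
    (xV Φ π hπ hex ι B L hL v hv, π v.1) ∈ modM mk g := by
  intro s
  obtain ⟨p, rfl⟩ := hπ s
  change mk (xV Φ π hπ hex ι B L hL v hv (π p)) = g (π v.1 * π p)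
  rw [xV_apply, map_sum]
  simp only [map_smul, mk_wVec π ι mk hmk g B hB]
  rw [pi_eq_sum π v.1, pi_eq_sum π p]
  rw [Finset.sum_mul_sum, map_sum]
  simp only [Finset.smul_sum, map_sum, map_smul, smul_mul_smul_comm, smul_smul]
  rw [Finset.sum_comm]
  refine Finset.sum_congr rfl (fun j _ => Finset.sum_congr rfl (fun k _ => ?_))
  rw [mul_comm (π (eV k)), mul_comm (p k)]



include hL in
lemma xV_eV (v : (Fin n₀ → A) × (Fin n₀ → A)) (hv : bigPsi Φ L v = 0) (k : Fin n₀) :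
    xV Φ π hπ hex ι B L hL v hv (π (eV k)) = wVec ι B v k := by
  rw [xV_apply]
  simp [eV, ite_smul]

include hL hBsymm in
lemma sum_Φc_B (c : Fin n₁ → A) (k : Fin n₀) :
    ∑ j, (Φ.mulVec c) j • B k j = ι ((Lᵀ.mulVec c) k) := by
  simp only [Matrix.mulVec, dotProduct, Matrix.transpose_apply, map_sum, Finset.sum_smul]
  rw [Finset.sum_comm]
  refine Finset.sum_congr rfl (fun l _ => ?_)
  have : L l k * c l = c l • L l k := by rw [smul_eq_mul, mul_comm]
  rw [this, map_smul, hL, Finset.smul_sum]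
  refine Finset.sum_congr rfl (fun j _ => ?_)
  rw [smul_smul, hBsymm k j, mul_comm]

include hex hL hBsymm in
lemma xV_theta (c : Fin n₁ → A) (hv : bigPsi Φ L (bigTheta Φ L c) = 0) :
    xV Φ π hπ hex ι B L hL (bigTheta Φ L c) hv = 0 := by
  ext s
  obtain ⟨p, rfl⟩ := hπ s
  rw [xV_apply]
  simp only [LinearMap.zero_apply]
  refine Finset.sum_eq_zero (fun k _ => ?_)
  have : wVec ι B (bigTheta Φ L c) k = 0 := by
    simp only [wVec, bigTheta_apply, Pi.neg_apply, map_neg]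
    rw [sum_Φc_B Φ ι B hBsymm L hL]
    simp
  rw [this, smul_zero]

/-- The retraction of `Θ` built from a section `s` of `Ψ`. -/
noncomputable def rhoMap (s : (Fin n₁ → A) →ₗ[A] ((Fin n₀ → A) × (Fin n₀ → A))) :
    ((Fin n₀ → A) × (Fin n₀ → A)) →ₗ[A] (Fin n₁ → A) :=
  LinearMap.pi (fun j =>
    (Fintype.linearCombination A (s (eV j)).2 ∘ₗ LinearMap.fst A _ _) -
      (Fintype.linearCombination A (s (eV j)).1 ∘ₗ LinearMap.snd A _ _))

lemma rhoMap_apply (s : (Fin n₁ → A) →ₗ[A] ((Fin n₀ → A) × (Fin n₀ → A)))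
    (v : (Fin n₀ → A) × (Fin n₀ → A)) (j : Fin n₁) :
    rhoMap s v j = v.1 ⬝ᵥ (s (eV j)).2 - v.2 ⬝ᵥ (s (eV j)).1 := by
  simp [rhoMap, Fintype.linearCombination_apply, dotProduct]

lemma rhoMap_theta (s : (Fin n₁ → A) →ₗ[A] ((Fin n₀ → A) × (Fin n₀ → A)))
    (hs : ∀ w, bigPsi Φ L (s w) = w) (c : Fin n₁ → A) :
    rhoMap s (bigTheta Φ L c) = c := by
  ext j
  rw [rhoMap_apply]
  simp only [bigTheta_apply]
  rw [neg_dotProduct, sub_neg_eq_add, dotProduct_comm, dotProduct_comm (Lᵀ.mulVec c),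
    Matrix.dotProduct_mulVec, Matrix.dotProduct_mulVec, Matrix.vecMul_transpose,
    ← Matrix.mulVec_transpose, ← add_dotProduct, add_comm]
  have := hs (eV j)
  rw [bigPsi_apply] at this
  rw [this]
  simp [eV, dotProduct]

/-- The free module `K₀`, kernel of `(Ψ, ρ)`. -/
noncomputable def kerK (s : (Fin n₁ → A) →ₗ[A] ((Fin n₀ → A) × (Fin n₀ → A))) :
    Submodule A ((Fin n₀ → A) × (Fin n₀ → A)) :=
  LinearMap.ker ((bigPsi Φ L).prod (rhoMap s))

include hι hBsymm hL in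
lemma kerK_surj (s : (Fin n₁ → A) →ₗ[A] ((Fin n₀ → A) × (Fin n₀ → A)))
    (hs : ∀ w, bigPsi Φ L (s w) = w) :
    Function.Surjective ((bigPsi Φ L).prod (rhoMap s)) := by
  rintro ⟨t, c⟩
  refine ⟨s t + bigTheta Φ L (c - rhoMap s (s t)), ?_⟩
  have h1 := bigPsi_bigTheta Φ ι hι B hBsymm L hL (c - rhoMap s (s t))
  have h2 := rhoMap_theta Φ L s hs (c - rhoMap s (s t))
  have e : ((bigPsi Φ L).prod (rhoMap s)) (s t + bigTheta Φ L (c - rhoMap s (s t))) =
      (bigPsi Φ L (s t + bigTheta Φ L (c - rhoMap s (s t))),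
        rhoMap s (s t + bigTheta Φ L (c - rhoMap s (s t)))) := rfl
  rw [e, map_add, map_add, h1, h2, hs]
  simp

lemma mem_kerK (s : (Fin n₁ → A) →ₗ[A] ((Fin n₀ → A) × (Fin n₀ → A)))
    {v : (Fin n₀ → A) × (Fin n₀ → A)} :
    v ∈ kerK Φ L s ↔ bigPsi Φ L v = 0 ∧ rhoMap s v = 0 := by
  simp [kerK, LinearMap.mem_ker]

/-- The comparison map from `K₀` to `modM`. -/
noncomputable def qMap (s : (Fin n₁ → A) →ₗ[A] ((Fin n₀ → A) × (Fin n₀ → A))) :
    kerK Φ L s →ₗ[A] modM mk g where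
  toFun v := ⟨(xV Φ π hπ hex ι B L hL v.1 ((mem_kerK Φ L s).1 v.2).1, π v.1.1),
    xV_mem Φ π hπ hex ι mk hmk g B hB L hL v.1 ((mem_kerK Φ L s).1 v.2).1⟩
  map_add' v v' := by
    ext t
    · obtain ⟨p, rfl⟩ := hπ t
      simp only [Submodule.coe_add, LinearMap.add_apply,
        AddMemClass.mk_add_mk, Prod.mk_add_mk]
      simp only [xV_apply, ← Finset.sum_add_distrib, ← smul_add]
      refine Finset.sum_congr rfl (fun k _ => ?_)
      congr 1
      simp only [wVec, Prod.fst_add, Prod.snd_add, Pi.add_apply, add_smul,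
        Finset.sum_add_distrib, map_add]
      abel
    · simp
  map_smul' a v := by
    ext t
    · obtain ⟨p, rfl⟩ := hπ t
      simp only [Submodule.coe_smul, LinearMap.smul_apply,
        RingHom.id_apply, SetLike.mk_smul_mk, Prod.smul_mk]
      simp only [xV_apply, Finset.smul_sum]
      refine Finset.sum_congr rfl (fun k _ => ?_)
      rw [smul_comm]
      congr 1
      simp only [wVec, Prod.smul_fst, Prod.smul_snd, Pi.smul_apply, smul_add,
        Finset.smul_sum, smul_eq_mul, mul_smul]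
      congr 1
      rw [← smul_eq_mul, map_smul]
    · simp

include hL hBsymm in
lemma wVec_theta (c : Fin n₁ → A) (k : Fin n₀) : wVec ι B (bigTheta Φ L c) k = 0 := by
  simp only [wVec, bigTheta_apply, Pi.neg_apply, map_neg]
  rw [sum_Φc_B Φ ι B hBsymm L hL]
  simp

lemma wVec_sub (v v' : (Fin n₀ → A) × (Fin n₀ → A)) (k : Fin n₀) :
    wVec ι B (v - v') k = wVec ι B v k - wVec ι B v' k := by
  simp only [wVec, Prod.fst_sub, Prod.snd_sub, Pi.sub_apply, sub_smul, Finset.sum_sub_distrib,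
    map_sub]
  abel

include hι hBsymm in
lemma qMap_injective (s : (Fin n₁ → A) →ₗ[A] ((Fin n₀ → A) × (Fin n₀ → A)))
    (hs : ∀ w, bigPsi Φ L (s w) = w) :
    Function.Injective (qMap Φ π hπ hex ι mk hmk g B hB L hL s) := by
  rw [injective_iff_map_eq_zero]
  rintro ⟨v, hv⟩ h0
  have h1 : π v.1 = 0 := congrArg (fun m : modM mk g => m.1.2) h0
  have h2 : xV Φ π hπ hex ι B L hL v ((mem_kerK Φ L s).1 hv).1 = 0 :=
    congrArg (fun m : modM mk g => m.1.1) h0
  have h3 : v.1 ∈ LinearMap.ker π := h1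
  rw [hex] at h3
  obtain ⟨c, hc⟩ := h3
  have hc' : Φ.mulVec c = v.1 := hc
  have h4 : ∀ k, wVec ι B v k = 0 := by
    intro k
    rw [← xV_eV Φ π hπ hex ι B L hL v ((mem_kerK Φ L s).1 hv).1 k, h2]
    simp
  have h5 : v.2 = - Lᵀ.mulVec c := by
    ext k
    apply hι
    have := h4 k
    simp only [wVec] at this
    rw [← hc', sum_Φc_B Φ ι B hBsymm L hL] at this
    simp only [Pi.neg_apply, map_neg]
    rw [eq_neg_iff_add_eq_zero, add_comm]
    exact this
  have h6 : v = bigTheta Φ L c := by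
    rw [bigTheta_apply]
    exact Prod.ext hc'.symm h5
  have h7 : rhoMap s v = 0 := ((mem_kerK Φ L s).1 hv).2
  rw [h6, rhoMap_theta Φ L s hs] at h7
  subst h7
  have h8 : v = 0 := by
    rw [h6]
    simp
  subst h8
  rfl

include hι hBsymm in
lemma qMap_surjective (s : (Fin n₁ → A) →ₗ[A] ((Fin n₀ → A) × (Fin n₀ → A)))
    (hs : ∀ w, bigPsi Φ L (s w) = w) :
    Function.Surjective (qMap Φ π hπ hex ι mk hmk g B hB L hL s) := by
  rintro ⟨⟨x, i⟩, hm⟩
  have hm' : ∀ t, mk (x t) = g (i * t) := hm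
  obtain ⟨a, rfl⟩ := hπ i
  have hb : ∀ k, ∃ bk : A, ι bk = x (π (eV k)) - ∑ j, a j • B k j := by
    intro k
    have : x (π (eV k)) - ∑ j, a j • B k j ∈ LinearMap.ker mk := by
      rw [LinearMap.mem_ker, map_sub, map_sum, hm', pi_eq_sum π a, Finset.sum_mul, map_sum,
        sub_eq_zero]
      refine Finset.sum_congr rfl (fun j _ => ?_)
      rw [smul_mul_assoc, map_smul, map_smul, hB, mul_comm]
    rw [hmk] at this
    exact this
  choose b hb using hb
  let v₀ : (Fin n₀ → A) × (Fin n₀ → A) := (a, b)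
  have hw : ∀ k, wVec ι B v₀ k = x (π (eV k)) := by
    intro k
    simp only [wVec, v₀, hb k]
    abel
  have hΦ : ∀ l, ∑ k, Φ k l • π (eV k) = 0 := by
    intro l
    have h := π_Φ Φ π hex (eV l)
    rw [pi_eq_sum π] at h
    rw [← h]
    refine Finset.sum_congr rfl (fun k _ => ?_)
    congr 1
    simp only [Matrix.mulVec, dotProduct, eV]
    simp
  have hv₀ : bigPsi Φ L v₀ = 0 := by
    ext l
    apply hι
    rw [← sum_Φ_w Φ ι B L hL]
    simp only [hw, Pi.zero_apply, map_zero]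
    have h9 : ∑ k, Φ k l • x (π (eV k)) = x (∑ k, Φ k l • π (eV k)) := by
      rw [map_sum]
      exact Finset.sum_congr rfl (fun k _ => (map_smul x _ _).symm)
    rw [h9, hΦ, map_zero]
  set c := rhoMap s v₀ with hc
  let v₁ := v₀ - bigTheta Φ L c
  have h1 : bigPsi Φ L v₁ = 0 := by
    simp only [v₁, map_sub, hv₀, bigPsi_bigTheta Φ ι hι B hBsymm L hL, sub_zero]
  have h2 : rhoMap s v₁ = 0 := by
    simp only [v₁, map_sub, rhoMap_theta Φ L s hs, ← hc, sub_self]
  have hv₁ : v₁ ∈ kerK Φ L s := (mem_kerK Φ L s).2 ⟨h1, h2⟩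
  refine ⟨⟨v₁, hv₁⟩, ?_⟩
  apply Subtype.ext
  apply Prod.ext
  · ext t
    obtain ⟨p, rfl⟩ := hπ t
    change xV Φ π hπ hex ι B L hL v₁ h1 (π p) = x (π p)
    rw [xV_apply, pi_eq_sum π p, map_sum]
    refine Finset.sum_congr rfl (fun k _ => ?_)
    rw [map_smul]
    congr 1
    simp only [v₁]
    rw [wVec_sub, hw, wVec_theta Φ ι B hBsymm L hL, sub_zero]
  · change π v₁.1 = π a
    simp only [v₁, v₀, Prod.fst_sub, map_sub, bigTheta_apply, π_Φ Φ π hex, sub_zero]

include hπ hex hL hι hBsymm hB hmk in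
/-- Main projectivity statement. -/
theorem modM_projective_finite (hΨ : Function.Surjective (bigPsi Φ L)) :
    Module.Projective A (modM mk g) ∧ Module.Finite A (modM mk g) := by
  obtain ⟨s, hs⟩ := Module.projective_lifting_property (bigPsi Φ L) LinearMap.id hΨ
  have hs' : ∀ w, bigPsi Φ L (s w) = w := fun w => by
    have := LinearMap.congr_fun hs w
    simpa using this
  obtain ⟨h1, h2⟩ := ker_projective_finite ((bigPsi Φ L).prod (rhoMap s))
    (kerK_surj Φ ι hι B hBsymm L hL s hs')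
  have hbij : Function.Bijective (qMap Φ π hπ hex ι mk hmk g B hB L hL s) :=
    ⟨qMap_injective Φ π hπ hex ι hι mk hmk g B hBsymm hB L hL s hs',
      qMap_surjective Φ π hπ hex ι hι mk hmk g B hBsymm hB L hL s hs'⟩
  let e := LinearEquiv.ofBijective (qMap Φ π hπ hex ι mk hmk g B hB L hL s) hbij
  have : Module.Projective A (kerK Φ L s) := h1
  have : Module.Finite A (kerK Φ L s) := h2
  exact ⟨Module.Projective.of_equiv e, Module.Finite.equiv e⟩

end

end Vale.Agent.Lib.P190
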