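import Mathlib

/-!
A regular local ring is a domain, and it has a regular sequence in its maximal ideal
whose length is its Krull dimension.
-/

namespace Vale.Agent.Lib.P190

universe u

open IsLocalRing RingTheory.Sequence Pointwise

lemma exists_param (A : Type u) [CommRing A] [IsLocalRing A] [IsNoetherianRing A]
    (hdim : 0 < ringKrullDim A) :
    ∃ x ∈ maximalIdeal A, x ∉ (maximalIdeal A) ^ 2 ∧ ∀ p ∈ minimalPrimes A, x ∉ p := by
  classical
  have hfin := (minimalPrimes.finite_of_isNoetherianRing A).toFinset
  let S : Finset (Ideal A) :=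
    insert ((maximalIdeal A) ^ 2) (minimalPrimes.finite_of_isNoetherianRing A).toFinset
  have hS : ¬ ((maximalIdeal A : Set A) ⊆ ⋃ i ∈ (↑S : Set (Ideal A)), (i : Set A)) := by
    intro h
    obtain ⟨i, hi, hle⟩ := (Ideal.subset_union_prime (f := fun i : Ideal A => i)
      ((maximalIdeal A) ^ 2) ((maximalIdeal A) ^ 2) (fun i hi h1 _ => by
        simp only [S, Finset.mem_insert, Set.Finite.mem_toFinset] at hi
        rcases hi with rfl | hi
        · exact absurd rfl h1
        · exact hi.1.1)).1 h
    simp only [S, Finset.mem_insert, Set.Finite.mem_toFinset] at hi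
    rcases hi with rfl | hi
    · -- `m ≤ m²`, so `m = 0`, so the dimension is zero
      have hm : maximalIdeal A = ⊥ := by
        apply Submodule.eq_bot_of_le_smul_of_le_jacobson_bot (maximalIdeal A) (maximalIdeal A)
          (IsNoetherian.noetherian _)
        · simpa [pow_two] using hle
        · exact (IsLocalRing.jacobson_eq_maximalIdeal _ bot_ne_top).ge
      have hf : IsField A := (IsLocalRing.isField_iff_maximalIdeal_eq).2 hm
      have := ringKrullDim_eq_zero_of_isField hf
      rw [this] at hdim
      exact lt_irrefl _ hdim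
    · -- `m` is a minimal prime, so the dimension is zero
      have hmin : ∀ p : Ideal A, p.IsPrime → p = maximalIdeal A := by
        intro p hp
        have hle' : p ≤ maximalIdeal A := IsLocalRing.le_maximalIdeal hp.ne_top
        have hi2 : i = maximalIdeal A := le_antisymm (IsLocalRing.le_maximalIdeal hi.1.1.ne_top) hle
        have h3 : i ≤ p := hi.2 ⟨hp, bot_le⟩ (hi2.symm ▸ hle')
        exact le_antisymm hle' (hi2 ▸ h3)
      have : Ring.KrullDimLE 0 A := Ring.KrullDimLE.mk₀ (fun p hp => by
        rw [hmin p hp]
        exact IsLocalRing.maximalIdeal.isMaximal A)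
      have h0 : ringKrullDim A ≤ 0 := Ring.krullDimLE_iff.1 this
      exact absurd hdim (not_lt.2 (by simpa using h0))
  rw [Set.not_subset] at hS
  obtain ⟨x, hx, hxS⟩ := hS
  refine ⟨x, hx, ?_, ?_⟩
  · intro h
    apply hxS
    simp only [Set.mem_iUnion]
    exact ⟨(maximalIdeal A) ^ 2, by simp [S], h⟩
  · intro p hp h
    apply hxS
    simp only [Set.mem_iUnion]
    exact ⟨p, by simp [S, hp], h⟩

lemma maximalIdeal_quot (A : Type u) [CommRing A] [IsLocalRing A] (I : Ideal A)
    (hI : I ≤ maximalIdeal A) [IsLocalRing (A ⧸ I)] :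
    maximalIdeal (A ⧸ I) = (maximalIdeal A).map (Ideal.Quotient.mk I) := by
  have hmax : ((maximalIdeal A).map (Ideal.Quotient.mk I)).IsMaximal := by
    refine (Ideal.map_eq_top_or_isMaximal_of_surjective (Ideal.Quotient.mk I)
      Ideal.Quotient.mk_surjective (IsLocalRing.maximalIdeal.isMaximal A)).resolve_left ?_
    intro h
    have h2 := Ideal.comap_map_mk hI
    rw [h, Ideal.comap_top] at h2
    exact (IsLocalRing.maximalIdeal.isMaximal A).ne_top h2.symm
  exact (IsLocalRing.eq_maximalIdeal hmax).symm

lemma spanFinrank_quot_le (A : Type u) [CommRing A] [IsLocalRing A] [IsNoetherianRing A] (n : ℕ)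
    (hn : (maximalIdeal A).spanFinrank = n + 1) (x : A) (hx : x ∈ maximalIdeal A)
    (hx2 : x ∉ (maximalIdeal A) ^ 2) [IsLocalRing (A ⧸ Ideal.span {x})] :
    (maximalIdeal (A ⧸ Ideal.span {x})).spanFinrank ≤ n := by
  classical
  let k := ResidueField A
  let V := CotangentSpace A
  have hfr : Module.finrank k V = n + 1 := by
    have := (IsLocalRing.spanFinrank_maximalIdeal_eq_finrank_cotangentSpace (R := A))
    rw [← this, hn]
  let v : V := (maximalIdeal A).toCotangent ⟨x, hx⟩
  have hv : v ≠ 0 := by
    intro h
    exact hx2 (((maximalIdeal A).toCotangent_eq_zero ⟨x, hx⟩).1 h)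
  have hind : LinearIndepOn k id ({v} : Set V) := by
    simpa using LinearIndepOn.singleton (R := k) (v := (id : V → V)) hv
  let bas := Module.Basis.extend hind
  let b := hind.extend (Set.subset_univ _)
  have hvb : v ∈ b := hind.subset_extend (Set.subset_univ _) rfl
  have : Finite b := Module.Finite.finite_basis bas
  have hcard : b.ncard = n + 1 := by
    rw [← hfr, Module.finrank_eq_nat_card_basis bas]
    rfl
  have hspan : Submodule.span k b = ⊤ := by
    have := bas.span_eq
    rwa [Module.Basis.range_extend] at this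
  have hbfin : b.Finite := Set.toFinite b
  let b' := b \ {v}
  have hb'card : b'.ncard = n := by
    have h1 : b'.ncard + 1 = b.ncard := Set.ncard_sdiff_singleton_add_one hvb hbfin
    omega
  let z : V → maximalIdeal A := Function.surjInv (maximalIdeal A).toCotangent_surjective
  have hz : ∀ w, (maximalIdeal A).toCotangent (z w) = w :=
    Function.surjInv_eq (maximalIdeal A).toCotangent_surjective
  let T : Set (maximalIdeal A) := insert ⟨x, hx⟩ (z '' b')
  have himg : (maximalIdeal A).toCotangent '' T = b := by
    simp only [T, Set.image_insert_eq, Set.image_image, hz, Set.image_id', b']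
    exact Set.insert_sdiff_self_of_mem hvb
  have htop : Submodule.span A T = ⊤ := by
    rw [← CotangentSpace.span_image_eq_top_iff, himg, hspan]
  have hmspan : maximalIdeal A = Submodule.span A (((↑) : maximalIdeal A → A) '' T) := by
    have h1 := congrArg (Submodule.map (maximalIdeal A).subtype) htop
    rw [Submodule.map_span, Submodule.map_top, Submodule.range_subtype] at h1
    exact h1.symm
  have hI : Ideal.span {x} ≤ maximalIdeal A := (Ideal.span_singleton_le_iff_mem _).2 hx
  rw [maximalIdeal_quot A _ hI, hmspan, Ideal.map_span]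
  let T' : Set (A ⧸ Ideal.span {x}) :=
    (fun w => Ideal.Quotient.mk (Ideal.span {x}) ((z w : A))) '' b'
  have hT' : (⇑(Ideal.Quotient.mk (Ideal.span {x}))) '' (((↑) : maximalIdeal A → A) '' T)
      = insert 0 T' := by
    simp only [T, T', Set.image_insert_eq, Set.image_image]
    congr 1
    exact Ideal.Quotient.eq_zero_iff_mem.2 (Ideal.mem_span_singleton_self x)
  have h0 : Ideal.span (insert (0 : A ⧸ Ideal.span {x}) T') = Ideal.span T' :=
    Submodule.span_insert_zero
  rw [hT', h0]
  have hfin' : T'.Finite := (hbfin.subset Set.sdiff_subset).image _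
  refine (Submodule.spanFinrank_span_le_ncard_of_finite hfin').trans ?_
  exact (Set.ncard_image_le (hbfin.subset Set.sdiff_subset)).trans hb'card.le

/-- The inductive statement: domain and regular sequence of length `n`. -/
theorem regular_aux (n : ℕ) : ∀ (A : Type u) [CommRing A] [IsLocalRing A] [IsNoetherianRing A],
    (maximalIdeal A).spanFinrank = n → ringKrullDim A = n →
    IsDomain A ∧ ∃ s : List A, s.length = n ∧ (∀ x ∈ s, x ∈ maximalIdeal A) ∧
      IsWeaklyRegular A s := by
  induction n with
  | zero =>
    intro A _ _ _ h1 _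
    have hm : maximalIdeal A = ⊥ :=
      (Submodule.spanFinrank_eq_zero_iff_eq_bot (maximalIdeal A).fg_of_isNoetherianRing).1 h1
    have hf : IsField A := (IsLocalRing.isField_iff_maximalIdeal_eq).2 hm
    exact ⟨hf.isDomain, [], rfl, by simp, IsWeaklyRegular.nil A A⟩
  | succ n ih =>
    intro A _ _ _ h1 h2
    have hdim : 0 < ringKrullDim A := by
      rw [h2]
      exact_mod_cast Nat.succ_pos n
    obtain ⟨x, hx, hx2, hxmin⟩ := exists_param A hdim
    have hI : Ideal.span {x} ≤ maximalIdeal A := (Ideal.span_singleton_le_iff_mem _).2 hx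
    have hne : Ideal.span {x} ≠ ⊤ := fun h => by
      rw [h] at hI
      exact (IsLocalRing.maximalIdeal.isMaximal A).ne_top (top_le_iff.1 hI)
    have : Nontrivial (A ⧸ Ideal.span {x}) := Ideal.Quotient.nontrivial_iff.2 hne
    have : IsLocalRing (A ⧸ Ideal.span {x}) :=
      IsLocalRing.of_surjective' (Ideal.Quotient.mk _) Ideal.Quotient.mk_surjective
    have hsf := spanFinrank_quot_le A n (by simpa using h1) x hx hx2
    have hd1 : (n : WithBot ℕ∞) ≤ ringKrullDim (A ⧸ Ideal.span {x}) := by
      have h3 : ringKrullDim A ≤ ringKrullDim (A ⧸ Ideal.span {x}) + 1 := by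
        have h4 := ringKrullDim_le_ringKrullDim_quotient_add_card (R := A) {x} (by
          rw [IsLocalRing.ringJacobson_eq_maximalIdeal]
          simpa using hx)
        have e : ((({x} : Finset A)) : Set A) = {x} := Finset.coe_singleton x
        rw [e] at h4
        simpa using h4
      rw [h2] at h3
      obtain ⟨e, he⟩ := WithBot.ne_bot_iff_exists.1
        (ringKrullDim_ne_bot (R := A ⧸ Ideal.span {x}))
      rw [← he] at h3 ⊢
      have h5 : ((n + 1 : ℕ) : ℕ∞) ≤ e + 1 := by exact_mod_cast h3
      have h6 : (n : ℕ∞) ≤ e := by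
        have h7 : (n : ℕ∞) + 1 ≤ e + 1 := by exact_mod_cast h5
        exact (ENat.add_le_add_iff_right (by simp)).1 h7
      exact_mod_cast h6
    have hd2 : ringKrullDim (A ⧸ Ideal.span {x}) ≤ (n : WithBot ℕ∞) :=
      (ringKrullDim_le_spanFinrank_maximalIdeal _).trans (by exact_mod_cast hsf)
    have hd : ringKrullDim (A ⧸ Ideal.span {x}) = n := le_antisymm hd2 hd1
    have hsf' : (maximalIdeal (A ⧸ Ideal.span {x})).spanFinrank = n := by
      apply le_antisymm hsf
      have := ringKrullDim_le_spanFinrank_maximalIdeal (A ⧸ Ideal.span {x})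
      rw [hd] at this
      exact_mod_cast this
    obtain ⟨hdom, s', hs'len, hs'm, hs'reg⟩ := ih (A ⧸ Ideal.span {x}) hsf' hd
    -- the ideal `(x)` is prime
    have hprime : (Ideal.span {x}).IsPrime := (Ideal.Quotient.isDomain_iff_prime _).1 hdom
    obtain ⟨p, hpmin, hple⟩ := Ideal.exists_minimalPrimes_le (I := ⊥) (J := Ideal.span {x}) bot_le
    have hxp : x ∉ p := hxmin p hpmin
    have hpprime : p.IsPrime := hpmin.1.1
    have hp0 : p = ⊥ := by
      apply Submodule.eq_bot_of_le_smul_of_le_jacobson_bot (Ideal.span {x}) p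
        (IsNoetherian.noetherian _)
      · intro u hu
        obtain ⟨v, rfl⟩ := Ideal.mem_span_singleton'.1 (hple hu)
        have hv : v ∈ p := (hpprime.mem_or_mem hu).resolve_right hxp
        exact Submodule.smul_mem_smul (Ideal.mem_span_singleton_self x) hv |> fun h => by
          simpa [mul_comm] using h
      · exact hI.trans (IsLocalRing.jacobson_eq_maximalIdeal _ bot_ne_top).ge
    have hbotprime : (⊥ : Ideal A).IsPrime := hp0 ▸ hpprime
    have hdomA : IsDomain A := by
      have : NoZeroDivisors A := ⟨fun {a b} hab => by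
        have h9 : a * b ∈ (⊥ : Ideal A) := by simpa using hab
        simpa using hbotprime.mem_or_mem h9⟩
      exact NoZeroDivisors.to_isDomain A
    have hx0 : x ≠ 0 := by
      rintro rfl
      exact hx2 (Ideal.zero_mem _)
    have hreg : IsSMulRegular A x := by
      intro a b hab
      exact mul_left_cancel₀ hx0 hab
    -- lifting the sequence
    let σ : (A ⧸ Ideal.span {x}) → A := Function.surjInv Ideal.Quotient.mk_surjective
    have hσ : ∀ y, Ideal.Quotient.mk (Ideal.span {x}) (σ y) = y :=
      Function.surjInv_eq Ideal.Quotient.mk_surjective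
    let s : List A := s'.map σ
    have hsmap : s.map (algebraMap A (A ⧸ Ideal.span {x})) = s' := by
      simp only [s, List.map_map]
      have : (algebraMap A (A ⧸ Ideal.span {x})) ∘ σ = id := by
        funext y
        exact hσ y
      rw [this, List.map_id]
    refine ⟨hdomA, x :: s, by simp [s, hs'len], ?_, ?_⟩
    · intro y hy
      rcases List.mem_cons.1 hy with rfl | hy
      · exact hx
      · obtain ⟨y', hy', rfl⟩ := List.mem_map.1 hy
        have h5 := hs'm y' hy'
        rw [maximalIdeal_quot A _ hI] at h5
        rw [← hσ y'] at h5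
        rw [Ideal.mem_map_iff_of_surjective _ Ideal.Quotient.mk_surjective] at h5
        obtain ⟨w, hw, hw2⟩ := h5
        have := Ideal.Quotient.eq.1 hw2
        have h6 := hI this
        have h7 := (maximalIdeal A).sub_mem hw h6
        simpa using h7
    · rw [isWeaklyRegular_cons_iff]
      refine ⟨hreg, ?_⟩
      rw [← hsmap] at hs'reg
      have h8 := (isWeaklyRegular_map_algebraMap_iff (A ⧸ Ideal.span {x}) (A ⧸ Ideal.span {x}) s).1
        hs'reg
      have heq : (x • (⊤ : Submodule A A)) = Ideal.span {x} := by
        rw [← Submodule.ideal_span_singleton_smul x ⊤, smul_eq_mul, Ideal.mul_top]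
      exact ((Submodule.quotEquivOfEq _ _ heq).isWeaklyRegular_congr s).2 h8

end Vale.Agent.Lib.P190
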