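import Vale.Agent.Lib.P190.Bridge
import Vale.Agent.Lib.P190.Regular

/-!
Assembly of the main theorem.
-/

namespace Vale.Agent.Lib.P190

universe u

open CategoryTheory Abelian Matrix IsLocalRing RingTheory.Sequence

section fraction
variable {A : Type u} [CommRing A] [IsDomain A]

lemma exists_y {n₀ n₁ : ℕ} (Φ : Matrix (Fin n₀) (Fin n₁) A)
    (hinj : Function.Injective Φ.mulVecLin) (τ : Fin n₁ → A) :
    ∃ y : Fin n₀ → FractionRing A,
      ∀ l, ∑ k, Φ k l • y k = algebraMap A (FractionRing A) (τ l) := by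
  classical
  let K := FractionRing A
  let ΦF : Matrix (Fin n₀) (Fin n₁) K := Φ.map (algebraMap A K)
  have hF : LinearMap.ker ΦF.mulVecLin = ⊥ := by
    rw [LinearMap.ker_eq_bot, injective_iff_map_eq_zero]
    intro v hv
    obtain ⟨b, hb⟩ := IsLocalization.exist_integer_multiples_of_finite (nonZeroDivisors A) v
    choose c hc using hb
    have h1 : Φ.mulVec c = 0 := by
      funext k
      apply IsFractionRing.injective A K
      have h2 := congrFun hv k
      simp only [Matrix.mulVecLin_apply, Matrix.mulVec, dotProduct, Pi.zero_apply, ΦF,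
        Matrix.map_apply] at h2
      simp only [Matrix.mulVec, dotProduct, map_sum, map_mul, hc, Pi.zero_apply, map_zero]
      have h3 : ∀ l, (algebraMap A K) (Φ k l) * ((b : A) • v l) =
          (algebraMap A K (b : A)) * ((algebraMap A K) (Φ k l) * v l) := by
        intro l
        rw [Algebra.smul_def]
        ring
      simp only [h3, ← Finset.mul_sum, h2, mul_zero]
    have h4 : c = 0 := hinj (by simpa using h1)
    funext l
    have h5 := hc l
    rw [h4] at h5
    simp only [Pi.zero_apply, map_zero] at h5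
    have h6 : (algebraMap A K (b : A)) * v l = 0 := by
      rw [← Algebra.smul_def]
      exact h5.symm
    have h7 : algebraMap A K (b : A) ≠ 0 := by
      intro h
      have := IsFractionRing.injective A K (h.trans (map_zero _).symm)
      exact (nonZeroDivisors.coe_ne_zero b) this
    simpa [h7] using h6
  obtain ⟨G, hG⟩ := LinearMap.exists_leftInverse_of_injective ΦF.mulVecLin hF
  let GM : Matrix (Fin n₁) (Fin n₀) K := LinearMap.toMatrix' G
  have hGM : GM * ΦF = 1 := by
    have h8 : LinearMap.toMatrix' (G ∘ₗ ΦF.mulVecLin) = 1 := by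
      rw [hG, LinearMap.toMatrix'_id]
    rw [LinearMap.toMatrix'_comp] at h8
    have h9 : LinearMap.toMatrix' ΦF.mulVecLin = ΦF := by
      rw [← Matrix.toLin'_apply', LinearMap.toMatrix'_toLin']
    rwa [h9] at h8
  refine ⟨GMᵀ.mulVec (fun l => algebraMap A K (τ l)), ?_⟩
  intro l
  have h10 : (ΦFᵀ.mulVec (GMᵀ.mulVec (fun l => algebraMap A K (τ l)))) =
      (fun l => algebraMap A K (τ l)) := by
    rw [Matrix.mulVec_mulVec, ← Matrix.transpose_mul, hGM]
    simp
  have h11 := congrFun h10 l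
  rw [← h11]
  simp only [Matrix.mulVec, dotProduct, Matrix.transpose_apply, ΦF, Matrix.map_apply,
    Algebra.smul_def]
  rfl

end fraction

section core
variable {A T : Type u} [CommRing A] [CommRing T] [Algebra A T] {n₀ n₁ : ℕ}
  (Φ : Matrix (Fin n₀) (Fin n₁) A) (π : (Fin n₀ → A) →ₗ[A] T)
  (hπ : Function.Surjective π) (hex : LinearMap.ker π = LinearMap.range Φ.mulVecLin)
  (hinj : Function.Injective Φ.mulVecLin)

include hex in
lemma sum_Φ_π (l : Fin n₁) : ∑ k, Φ k l • π (eV k) = 0 := by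
  have h := π_Φ Φ π hex (eV l)
  rw [pi_eq_sum π] at h
  rw [← h]
  refine Finset.sum_congr rfl (fun k _ => ?_)
  congr 1
  simp only [Matrix.mulVec, dotProduct, eV]
  simp

lemma eV_mulVec (M : Matrix (Fin n₀) (Fin n₁) A) (l : Fin n₁) (k : Fin n₀) :
    (M.mulVec (eV l)) k = M k l := by
  simp only [Matrix.mulVec, dotProduct, eV]
  simp

include hπ in
lemma bigPsi_surj_of_ext (hS : (presSC Φ π hex).ShortExact)
    (t₀ : (Fin n₁ → A) →ₗ[A] A)
    (hg : ∀ h : Ext (ModuleCat.of A T) (ModuleCat.of A A) 1, ∃ tt : T,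
      h = (Ext.mk₀ (ModuleCat.ofHom (LinearMap.mulLeft A tt))).comp (deltaExt Φ π hex hS t₀)
        (zero_add 1))
    (μ : Fin n₀ → Fin n₀ → (Fin n₀ → A))
    (hμ : ∀ j k, π (μ j k) = π (eV j) * π (eV k))
    (d : Fin n₁ → Fin n₀ → (Fin n₁ → A))
    (hd : ∀ l k, Φ.mulVec (d l k) = ∑ j, Φ j l • μ j k)
    (L : Matrix (Fin n₁) (Fin n₀) A) (hLdef : ∀ l k, L l k = t₀ (d l k)) :
    Function.Surjective (bigPsi Φ L) := by
  intro t'
  let form : (Fin n₁ → A) →ₗ[A] A := Fintype.linearCombination A t'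
  obtain ⟨tt, htt⟩ := hg (deltaExt Φ π hex hS form)
  obtain ⟨a, rfl⟩ := hπ tt
  let R0 : Matrix (Fin n₀) (Fin n₀) A := Matrix.of fun i j => ∑ k, a k * (μ j k) i
  let R1 : Matrix (Fin n₁) (Fin n₁) A := Matrix.of fun m l => ∑ k, a k * (d l k) m
  have h1 : Φ.mulVecLin ∘ₗ R1.mulVecLin = R0.mulVecLin ∘ₗ Φ.mulVecLin := by
    rw [← Matrix.mulVecLin_mul, ← Matrix.mulVecLin_mul]
    congr 1
    ext i l
    simp only [Matrix.mul_apply, R1, R0, Matrix.of_apply]
    have h2 : ∀ m, Φ i m * ∑ k, a k * d l k m = ∑ k, a k * (Φ i m * d l k m) := by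
      intro m
      rw [Finset.mul_sum]
      exact Finset.sum_congr rfl (fun k _ => by ring)
    simp only [h2]
    rw [Finset.sum_comm]
    have h3 : ∀ k, ∑ m, a k * (Φ i m * d l k m) = a k * (Φ.mulVec (d l k)) i := by
      intro k
      simp [Matrix.mulVec, dotProduct, Finset.mul_sum]
    simp only [h3, hd, Finset.sum_apply, Pi.smul_apply, smul_eq_mul, Finset.mul_sum, Finset.sum_mul]
    rw [Finset.sum_comm]
    exact Finset.sum_congr rfl (fun j _ => Finset.sum_congr rfl (fun k _ => by ring))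
  have h2 : π ∘ₗ R0.mulVecLin = (LinearMap.mulLeft A (π a)) ∘ₗ π := by
    apply LinearMap.ext
    intro p
    have h3 : R0.mulVec p = ∑ j, ∑ k, (p j * a k) • μ j k := by
      funext i
      simp only [Matrix.mulVec, dotProduct, R0, Matrix.of_apply, Finset.sum_apply, Pi.smul_apply,
        smul_eq_mul, Finset.sum_mul]
      exact Finset.sum_congr rfl (fun j _ => Finset.sum_congr rfl (fun k _ => by ring))
    simp only [LinearMap.comp_apply, Matrix.mulVecLin_apply, LinearMap.mulLeft_apply]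
    rw [h3, map_sum]
    simp only [map_sum, map_smul, hμ]
    rw [pi_eq_sum π a, pi_eq_sum π p, Finset.sum_mul_sum, Finset.sum_comm]
    refine Finset.sum_congr rfl (fun j _ => Finset.sum_congr rfl (fun k _ => ?_))
    rw [smul_mul_smul_comm, mul_comm (π (eV j))]
    congr 1
    ring
  have hact := deltaExt_act Φ π hex hS (π a) R0.mulVecLin R1.mulVecLin h1 h2 t₀
  have hδ : deltaExt Φ π hex hS form = deltaExt Φ π hex hS (t₀ ∘ₗ R1.mulVecLin) := htt.trans hact
  have h0 : deltaExt Φ π hex hS (form + (- (t₀ ∘ₗ R1.mulVecLin))) = 0 := by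
    rw [deltaExt_add, deltaExt_neg, hδ, add_neg_cancel]
  obtain ⟨u, hu⟩ := deltaExt_ker Φ π hex hS _ h0
  refine ⟨(a, fun k => u (eV k)), ?_⟩
  funext l
  have e := LinearMap.congr_fun hu (eV l)
  simp only [LinearMap.add_apply, LinearMap.neg_apply, LinearMap.comp_apply,
    Matrix.mulVecLin_apply] at e
  have h4 : form (eV l) = t' l := by
    simp [form, Fintype.linearCombination_apply, eV]
  have h5 : R1.mulVec (eV l) = ∑ k, a k • d l k := by
    funext m
    rw [eV_mulVec]
    simp [R1]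
  have h6 : t₀ (R1.mulVec (eV l)) = (L.mulVec a) l := by
    rw [h5, map_sum]
    simp only [Matrix.mulVec, dotProduct, hLdef, map_smul, smul_eq_mul]
    exact Finset.sum_congr rfl (fun k _ => mul_comm _ _)
  have h7 : u (Φ.mulVec (eV l)) = (Φᵀ.mulVec (fun k => u (eV k))) l := by
    have h8 : Φ.mulVec (eV l) = fun k => Φ k l := funext (fun k => eV_mulVec Φ l k)
    rw [h8, LinearMap.pi_apply_eq_sum_univ u]
    simp only [Matrix.mulVec, dotProduct, Matrix.transpose_apply, smul_eq_mul]
    rfl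
  rw [h4, h6, h7] at e
  rw [bigPsi_apply]
  simp only [Pi.add_apply]
  rw [← e]
  ring

end core

section final
variable (A : Type u) [CommRing A] [IsDomain A]

/-- The inclusion of `A` in its fraction field, as a linear map. -/
noncomputable abbrev iotaK : A →ₗ[A] FractionRing A := Algebra.linearMap A (FractionRing A)

/-- The quotient `F / A`. -/
abbrev EK : Type u := FractionRing A ⧸ LinearMap.range (iotaK A)

/-- The reduction map `F → F / A`. -/
noncomputable abbrev mkK : FractionRing A →ₗ[A] EK A := (LinearMap.range (iotaK A)).mkQ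

variable {A}
variable {T : Type u} [CommRing T] [Algebra A T] {n₀ n₁ : ℕ}
  (Φ : Matrix (Fin n₀) (Fin n₁) A) (π : (Fin n₀ → A) →ₗ[A] T)
  (hπ : Function.Surjective π) (hex : LinearMap.ker π = LinearMap.range Φ.mulVecLin)
  (hinj : Function.Injective Φ.mulVecLin)

include hπ hinj in
theorem core_exists (hT : Function.Injective (algebraMap A T))
    (hS : (presSC Φ π hex).ShortExact)
    (g : Ext (ModuleCat.of A T) (ModuleCat.of A A) 1)
    (hg : ∀ h : Ext (ModuleCat.of A T) (ModuleCat.of A A) 1, ∃ t : T,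
      h = (Ext.mk₀ (ModuleCat.ofHom (LinearMap.mulLeft A t))).comp g (zero_add 1)) :
    ∃ gT : T →ₗ[A] EK A, Module.Projective A (modM (mkK A) gT) ∧
      Module.Finite A (modM (mkK A) gT) ∧ Nontrivial (modM (mkK A) gT) := by
  classical
  obtain ⟨t₀, rfl⟩ := deltaExt_surj Φ π hex hS g
  obtain ⟨y, hy⟩ := exists_y Φ hinj (fun l => t₀ (eV l))
  let ℓy : (Fin n₀ → A) →ₗ[A] FractionRing A := Fintype.linearCombination A y
  have hℓ0 : ∀ p, ℓy p = ∑ k, p k • y k := by
    intro p
    simp [ℓy, Fintype.linearCombination_apply]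
  have hℓ : ∀ c, ℓy (Φ.mulVec c) = iotaK A (t₀ c) := by
    intro c
    rw [hℓ0, LinearMap.pi_apply_eq_sum_univ t₀ c, map_sum]
    have h1 : ∀ l, iotaK A (c l • t₀ (fun j => if l = j then 1 else 0)) =
        ∑ k, (Φ k l * c l) • y k := by
      intro l
      rw [map_smul]
      change c l • (algebraMap A (FractionRing A) (t₀ (eV l))) = _
      rw [← hy l, Finset.smul_sum]
      refine Finset.sum_congr rfl (fun k _ => ?_)
      rw [smul_smul, mul_comm]
    simp only [h1]
    rw [Finset.sum_comm]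
    refine Finset.sum_congr rfl (fun k _ => ?_)
    rw [← Finset.sum_smul]
    rfl
  have hvan : ∀ c, (mkK A ∘ₗ ℓy) (Φ.mulVec c) = 0 := by
    intro c
    simp only [LinearMap.comp_apply]
    rw [hℓ]
    rw [Submodule.mkQ_apply, Submodule.Quotient.mk_eq_zero]
    exact ⟨_, rfl⟩
  let gT : T →ₗ[A] EK A := descF Φ π hπ hex (mkK A ∘ₗ ℓy) hvan
  have hgT : ∀ p, gT (π p) = mkK A (ℓy p) := by
    intro p
    simpa [gT] using descF_apply Φ π hπ hex (mkK A ∘ₗ ℓy) hvan p
  choose c0 hc0 using fun (j k : Fin n₀) => hπ (π (eV j) * π (eV k))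
  let μ : Fin n₀ → Fin n₀ → (Fin n₀ → A) := fun j k => c0 (min j k) (max j k)
  have hμsymm : ∀ j k, μ j k = μ k j := by
    intro j k
    simp only [μ, min_comm, max_comm]
  have hμ : ∀ j k, π (μ j k) = π (eV j) * π (eV k) := by
    intro j k
    simp only [μ, hc0]
    rcases le_total j k with h | h
    · simp [min_eq_left h, max_eq_right h]
    · simp [min_eq_right h, max_eq_left h, mul_comm]
  have hd : ∀ l k, ∃ dd : Fin n₁ → A, Φ.mulVec dd = ∑ j, Φ j l • μ j k := by
    intro l k
    have h1 : ∑ j, Φ j l • μ j k ∈ LinearMap.ker π := by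
      rw [LinearMap.mem_ker, map_sum]
      simp only [map_smul, hμ, ← smul_mul_assoc, ← Finset.sum_mul, sum_Φ_π Φ π hex, zero_mul]
    rw [hex] at h1
    exact h1
  choose d hd using hd
  let L : Matrix (Fin n₁) (Fin n₀) A := Matrix.of fun l k => t₀ (d l k)
  let B : Fin n₀ → Fin n₀ → FractionRing A := fun j k => ℓy (μ j k)
  have hBsymm : ∀ j k, B j k = B k j := by
    intro j k
    simp only [B, hμsymm j k]
  have hB : ∀ j k, mkK A (B j k) = gT (π (eV j) * π (eV k)) := by
    intro j k
    rw [← hμ, hgT]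
  have hL : ∀ l k, iotaK A (L l k) = ∑ j, Φ j l • B j k := by
    intro l k
    simp only [L, Matrix.of_apply, B]
    rw [← hℓ, hd, map_sum]
    simp
  have hΨ : Function.Surjective (bigPsi Φ L) :=
    bigPsi_surj_of_ext Φ π hπ hex hS t₀ hg μ hμ d hd L (fun _ _ => rfl)
  have hι : Function.Injective (iotaK A) := IsFractionRing.injective A (FractionRing A)
  have hmk : LinearMap.ker (mkK A) = LinearMap.range (iotaK A) := Submodule.ker_mkQ _
  obtain ⟨h1, h2⟩ := modM_projective_finite Φ π hπ hex (iotaK A) hι (mkK A) hmk gT B hBsymm hB L hL hΨ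
  refine ⟨gT, h1, h2, ?_⟩
  obtain ⟨b, hb⟩ := IsLocalization.exist_integer_multiples_of_finite (nonZeroDivisors A) y
  choose e he using hb
  have hb0 : (b : A) ≠ 0 := nonZeroDivisors.coe_ne_zero b
  have hmem : ((0 : T →ₗ[A] FractionRing A), algebraMap A T (b : A)) ∈ modM (mkK A) gT := by
    intro s
    obtain ⟨p, rfl⟩ := hπ s
    simp only [LinearMap.zero_apply, map_zero]
    rw [← Algebra.smul_def, map_smul, hgT, hℓ0, ← map_smul, Finset.smul_sum]
    rw [Submodule.mkQ_apply, eq_comm, Submodule.Quotient.mk_eq_zero]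
    refine ⟨∑ k, p k * e k, ?_⟩
    rw [map_sum]
    refine Finset.sum_congr rfl (fun k _ => ?_)
    rw [← smul_eq_mul, map_smul]
    change p k • algebraMap A _ (e k) = _
    rw [he k, smul_comm]
  refine ⟨⟨⟨_, hmem⟩, 0, ?_⟩⟩
  intro h
  have h3 : algebraMap A T (b : A) = 0 := congrArg (fun m : modM (mkK A) gT => m.1.2) h
  exact hb0 (hT (h3.trans (map_zero _).symm))

end final

end Vale.Agent.Lib.P190
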