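import Mathlib

/-!
The module `modM`: pairs `(x, i)` with `x : T → F` an `A`-linear map and `i : T`
such that the reduction of `x` is the translate of `g` by `i`.
It carries an action of `T` by precomposition with multiplication.
-/

namespace Vale.Agent.Lib.P190

universe u v

section
variable {A : Type u} [CommRing A] {T : Type u} [CommRing T] [Algebra A T]
variable {F E : Type u} [AddCommGroup F] [Module A F] [AddCommGroup E] [Module A E]

/-- Pairs `(x, i)` such that `mk (x s) = g (i * s)` for all `s`. -/
def modM (mk : F →ₗ[A] E) (g : T →ₗ[A] E) : Submodule A ((T →ₗ[A] F) × T) where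
  carrier := {m | ∀ s, mk (m.1 s) = g (m.2 * s)}
  add_mem' := by
    intro m n hm hn s
    have hm' : ∀ s, mk (m.1 s) = g (m.2 * s) := hm
    have hn' : ∀ s, mk (n.1 s) = g (n.2 * s) := hn
    simp [hm' s, hn' s, add_mul]
  zero_mem' := by
    intro s
    simp
  smul_mem' := by
    intro a m hm s
    have hm' : ∀ s, mk (m.1 s) = g (m.2 * s) := hm
    simp [hm' s]

variable (mk : F →ₗ[A] E) (g : T →ₗ[A] E)

@[simp] lemma mem_modM {m : (T →ₗ[A] F) × T} :
    m ∈ modM mk g ↔ ∀ s, mk (m.1 s) = g (m.2 * s) := Iff.rfl

/-- The action of an element of `T` on `modM`. -/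
def actM (t : T) : modM mk g →ₗ[A] modM mk g where
  toFun m := ⟨((m.1.1).comp (LinearMap.mulLeft A t), t * m.1.2), by
    intro s
    have := m.2 (t * s)
    simp only [LinearMap.comp_apply, LinearMap.mulLeft_apply]
    rw [this]
    congr 1
    ring⟩
  map_add' m n := by
    ext <;> simp [mul_add]
  map_smul' a m := by
    ext <;> simp

@[simp] lemma actM_fst (t : T) (m : modM mk g) (s : T) :
    ((actM mk g t m).1.1) s = m.1.1 (t * s) := rfl

@[simp] lemma actM_snd (t : T) (m : modM mk g) :
    ((actM mk g t m).1.2) = t * m.1.2 := rfl

/-- The ring homomorphism from `T` to endomorphisms of `modM`. -/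
def actHom : T →+* Module.End A (modM mk g) where
  toFun := actM mk g
  map_one' := by
    ext m s
    · simp
    · simp
  map_mul' t t' := by
    ext m s
    · simp [mul_comm, mul_left_comm]
    · simp [mul_assoc]
  map_zero' := by
    ext m s
    · simp
    · simp
  map_add' t t' := by
    ext m s
    · simp [add_mul]
    · simp [add_mul]

instance instModuleT : Module T (modM mk g) := Module.compHom _ (actHom mk g)

lemma smul_def (t : T) (m : modM mk g) : t • m = actM mk g t m := rfl

instance instTower : IsScalarTower A T (modM mk g) where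
  smul_assoc a t m := by
    rw [smul_def]
    ext s
    · simp [actM_fst, smul_def]
    · simp [actM_snd, smul_def]

end

end Vale.Agent.Lib.P190
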